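import Mathlib

/-! Symmetric sums of a Fourier series on the circle. -/

namespace Vale.Agent.P091

/-- `S_N f (x) = ∑_{|k| ≤ N} f^(k) e_k(x)` on the circle `ℝ / T ℤ` -/
noncomputable def SN {T : ℝ} [Fact (0 < T)] (N : ℕ) (f : AddCircle T → ℂ) (x : AddCircle T) : ℂ :=
  ∑ k ∈ Finset.Icc (-(N : ℤ)) N, fourierCoeff f k * fourier k x

end Vale.Agent.P091
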