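import Vale.Agent.P091.Kern
import Vale.Agent.P091.Stmt

/-! A set whose normalised indicator has large Fourier sums at most points. -/

namespace Vale.Agent.P091

open Finset Real MeasureTheory AddCircle Metric

variable {T : ℝ} [hT : Fact (0 < T)]

def pt (T x : ℝ) : AddCircle T := (T * x : ℝ)

theorem ee_int (m : ℤ) : ee m = 1 := by
  rw [ee, ← Complex.exp_int_mul_two_pi_mul_I m]
  congr 1
  push_cast
  ring

theorem fourier_pt (k : ℤ) (x : ℝ) : fourier k (pt T x) = ee (k * x) := by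
  have : (T : ℂ) ≠ 0 := by exact_mod_cast hT.out.ne'
  rw [pt, fourier_coe_apply, ee]
  congr 1
  push_cast
  field_simp

theorem exists_pt (z : AddCircle T) : ∃ x, 0 ≤ x ∧ x < 1 ∧ z = pt T x := by
  obtain ⟨b, hb, rfl⟩ := eq_coe_Ico z
  exact ⟨b / T, div_nonneg hb.1 hT.out.le, (div_lt_one hT.out).2 hb.2,
    by rw [pt, mul_div_cancel₀ _ hT.out.ne']⟩

theorem dist_pt (x y : ℝ) : dist (pt T x) (pt T y) = T * |x - y - round (x - y)| := by
  rw [dist_eq_norm, pt, pt, ← AddCircle.coe_sub, norm_eq' T hT.out, ← mul_sub,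
    inv_mul_cancel_left₀ hT.out.ne']

theorem mem_ball_pt {x y r : ℝ} (h : |x - y| ≤ r) : pt T x ∈ closedBall (pt T y) (T * r) := by
  rw [mem_closedBall, dist_pt]
  exact mul_le_mul_of_nonneg_left ((by simpa using round_le (x - y) 0 :
    |x - y - round (x - y)| ≤ |x - y|).trans h) hT.out.le

theorem haar_ball (z : AddCircle T) {r : ℝ} (hr : 0 ≤ r) :
    haarAddCircle.real (closedBall z (T * r)) = min 1 (2 * r) := by
  have h0 := hT.out
  have h := congrArg ENNReal.toReal (AddCircle.volume_closedBall T (x := z) (T * r))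
  rw [volume_eq_smul_haarAddCircle, Measure.smul_apply, smul_eq_mul, ENNReal.toReal_mul,
    ENNReal.toReal_ofReal h0.le, ENNReal.toReal_ofReal (by positivity), mul_left_comm] at h
  refine mul_left_cancel₀ h0.ne' (h.trans ?_)
  rw [mul_min_of_nonneg _ _ h0.le, mul_one]

theorem fourier_lip (k : ℤ) {a b : AddCircle T} {r : ℝ} (h : a ∈ closedBall b (T * r)) :
    ‖fourier k a - fourier k b‖ ≤ 2 * π * (|(k : ℝ)| * r) := by
  obtain ⟨x, -, -, rfl⟩ := exists_pt a
  obtain ⟨y, -, -, rfl⟩ := exists_pt b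
  rw [mem_closedBall, dist_pt, mul_le_mul_iff_right₀ hT.out] at h
  rw [fourier_pt, fourier_pt, show (k : ℝ) * x = k * y + ((k * round (x - y) : ℤ) +
    k * (x - y - round (x - y))) by push_cast; ring, ee_add, ee_add, ee_int, one_mul,
    ← mul_sub_one, norm_mul, norm_ee, one_mul]
  refine (ee_sub_one _).trans (mul_le_mul_of_nonneg_left ?_ (by positivity))
  rw [abs_mul]
  exact mul_le_mul_of_nonneg_left h (abs_nonneg _)

theorem approx {N M : ℕ} (hN : 0 < N) (hM : N ≤ M) (τ : ℕ → ℝ) (hτ : ∀ y, 0 ≤ τ y ∧ τ y ≤ 1 / 2) :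
    ∃ E : Set (AddCircle T), MeasurableSet E ∧ 10 * M ^ 2 / N * haarAddCircle.real E = 1 ∧
      ∀ n ≤ M, ∀ x, ‖SN n (E.indicator fun _ => ((10 * M ^ 2 / N : ℝ) : ℂ)) (pt T x) -
        ∑ y ∈ range N, 1 / (N : ℂ) * DK n (x - (y + τ y) / N)‖ ≤ 1 := by
  have hN' : (1 : ℝ) ≤ N := by exact_mod_cast hN
  have hM' : (N : ℝ) ≤ M := by exact_mod_cast hM
  have h0 := hT.out
  set ρ : ℝ := 1 / (20 * M ^ 2) with hρ
  have hM0 : (0 : ℝ) < M := by linarith
  have ρ0 : 0 < ρ := by positivity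
  have ρ1 : 2 * ρ < 1 / 2 / N := by
    rw [hρ, mul_one_div, div_div, div_lt_div_iff₀ (by positivity) (by positivity)]
    nlinarith
  have ρ2 : 1 / 2 / (N : ℝ) ≤ 1 / 2 := div_le_self (by norm_num) hN'
  set B : ℕ → Set (AddCircle T) := fun y => closedBall (pt T ((y + τ y) / N)) (T * ρ) with hB
  have mB : ∀ y, haarAddCircle.real (B y) = 2 * ρ := fun y => by
    rw [haar_ball _ ρ0.le, min_eq_right (by linarith)]
  have hd : Set.PairwiseDisjoint (range N : Set ℕ) B := by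
    have key : ∀ y y' : ℕ, y' < N → y < y' → Disjoint (B y') (B y) := fun y y' h1 h2 => by
      have a1 : (y : ℝ) + 1 ≤ y' := by exact_mod_cast h2
      have a2 : (y' : ℝ) + 1 ≤ N := by exact_mod_cast h1
      have a3 : (0 : ℝ) ≤ y := by positivity
      refine closedBall_disjoint_closedBall ?_
      rw [dist_pt, ← mul_add, ← two_mul, mul_lt_mul_iff_right₀ h0]
      set u := (y' + τ y') / N - (y + τ y) / N with hu
      have a4 : 1 / 2 / (N : ℝ) ≤ u := by
        rw [hu, ← sub_div]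
        exact div_le_div_of_nonneg_right (by linarith [(hτ y).2, (hτ y').1]) (by positivity)
      have a5 : 1 / 2 / (N : ℝ) ≤ 1 - u := by
        rw [hu, ← sub_div, one_sub_div (by positivity)]
        exact div_le_div_of_nonneg_right (by linarith [(hτ y).1, (hτ y').2]) (by positivity)
      rcases le_or_gt (round u) 0 with h | h
      · have : (round u : ℝ) ≤ 0 := by exact_mod_cast h
        linarith [le_abs_self (u - round u)]
      · have : (1 : ℝ) ≤ round u := by exact_mod_cast h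
        linarith [neg_le_abs (u - round u)]
    intro y hy y' hy' h
    rcases lt_or_gt_of_ne h with h | h
    · exact (key y y' (by simpa using hy') h).symm
    · exact key y' y (by simpa using hy) h
  have mE : MeasurableSet (⋃ y ∈ range N, B y) :=
    (range N).measurableSet_biUnion fun _ _ => measurableSet_closedBall
  set H : ℝ := 10 * M ^ 2 / N with hH
  have hH1 : H * (2 * ρ) = 1 / N := by
    rw [hH, hρ]
    field_simp
    norm_num
  refine ⟨_, mE, ?_, fun n hn x => ?_⟩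
  · rw [measureReal_biUnion_finset hd fun _ _ => measurableSet_closedBall]
    simp only [mB, sum_const, card_range, nsmul_eq_mul]
    rw [mul_left_comm, hH1]
    field_simp
  have iF : ∀ (k : ℤ) (s : Set (AddCircle T)), IntegrableOn (fourier k) s haarAddCircle :=
    fun k s => ((fourier k).continuous.integrable_of_hasCompactSupport
      (HasCompactSupport.of_compactSpace _)).integrableOn
  have key : ∀ k ∈ Icc (-(n : ℤ)) n,
      ‖fourierCoeff ((⋃ y ∈ range N, B y).indicator fun _ => (H : ℂ)) k * fourier k (pt T x) -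
        ∑ y ∈ range N, 1 / (N : ℂ) * ee (k * (x - (y + τ y) / N))‖ ≤ 2 * π * (M * ρ) := by
    intro k hk
    have hk' : |((-k : ℤ) : ℝ)| ≤ M := by
      have := mem_Icc.1 hk
      exact_mod_cast abs_le.2 ⟨by omega, by omega⟩
    have e1 : fourierCoeff ((⋃ y ∈ range N, B y).indicator fun _ => (H : ℂ)) k =
        ∑ y ∈ range N, H * ∫ t in B y, fourier (-k) t ∂haarAddCircle := by
      rw [← mul_sum, ← integral_biUnion_finset _ (fun _ _ => measurableSet_closedBall) hd
        fun _ _ => iF _ _, ← integral_const_mul, ← integral_indicator mE, fourierCoeff]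
      congr 1
      funext t
      by_cases ht : t ∈ ⋃ y ∈ range N, B y
      · rw [Set.indicator_of_mem ht, Set.indicator_of_mem ht, smul_eq_mul, mul_comm]
      · rw [Set.indicator_of_notMem ht, Set.indicator_of_notMem ht, smul_zero]
    rw [e1, sum_mul, ← sum_sub_distrib]
    refine (norm_sum_le_of_le (n := fun _ => 1 / N * (2 * π * (M * ρ))) _ fun y _ => ?_).trans ?_
    · have e2 : (1 / (N : ℂ)) * fourier (-k) (pt T ((y + τ y) / N)) =
          H * ∫ _ in B y, fourier (-k) (pt T ((y + τ y) / N)) ∂haarAddCircle := by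
        rw [setIntegral_const, mB, Complex.real_smul, ← mul_assoc, ← Complex.ofReal_mul, hH1]
        push_cast
        rfl
      rw [show (k : ℝ) * (x - (y + τ y) / N) = (-k : ℤ) * ((y + τ y) / N) + k * x by
        push_cast; ring, ee_add, ← fourier_pt (T := T), ← fourier_pt (T := T), ← mul_assoc,
        ← sub_mul, e2, ← mul_sub, ← integral_sub (iF _ _) (integrable_const _), norm_mul, norm_mul,
        fourier_pt k, norm_ee, mul_one, Complex.norm_real, Real.norm_of_nonneg (by positivity),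
        ← hH1, mul_assoc, mul_comm (2 * ρ), ← mB y]
      refine mul_le_mul_of_nonneg_left (norm_setIntegral_le_of_norm_le_const (measure_lt_top _ _)
        fun t ht => (fourier_lip _ ht).trans ?_) (by positivity)
      push_cast at hk' ⊢
      gcongr
    · rw [sum_const, card_range, nsmul_eq_mul, ← mul_assoc, mul_one_div_cancel (by positivity),
        one_mul]
  simp only [SN, DK, mul_sum]
  rw [sum_comm, ← sum_sub_distrib]
  refine (norm_sum_le_of_le _ key).trans ?_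
  have hn' : (n : ℝ) ≤ M := by exact_mod_cast hn
  rw [sum_const, Int.card_Icc, nsmul_eq_mul, show ((n : ℤ) + 1 - -n).toNat = 2 * n + 1 by omega, hρ,
    mul_one_div, ← mul_div_assoc, ← mul_div_assoc, div_le_one (by positivity)]
  push_cast
  have a1 : 2 * (n : ℝ) + 1 ≤ 3 * M := by linarith
  have a2 : 2 * π * M ≤ 6.3 * M := mul_le_mul_of_nonneg_right (by linarith [pi_lt_d2]) hM0.le
  nlinarith [mul_le_mul a1 a2 (by positivity) (by positivity)]

theorem bad_cover {κ : ℝ} (hκ0 : 0 < κ) (hκ : κ ≤ 1) {N : ℕ} (hN : 0 < N) (A : Finset ℕ)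
    (hA : (A.card : ℝ) ≤ κ * N) {Z : Set (AddCircle T)}
    (hZ : ∀ x, κ ≤ x → x ≤ 1 - κ → (∀ j : ℤ, κ ≤ |2 * N * x - j|) → ⌊N * x⌋₊ ∉ A → pt T x ∉ Z) :
    haarAddCircle.real Z ≤ 8 * κ := by
  have hN' : (1 : ℝ) ≤ N := by exact_mod_cast hN
  have hb : ∀ (z : AddCircle T) (r : ℝ), 0 ≤ r →
      haarAddCircle.real (closedBall z (T * r)) ≤ 2 * r := fun z r hr =>
    (haar_ball z hr).trans_le (min_le_right _ _)
  have hs : Z ⊆ (closedBall (pt T 0) (T * κ) ∪ closedBall (pt T 1) (T * κ)) ∪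
      ((⋃ j ∈ range (2 * N + 1), closedBall (pt T (j / (2 * N))) (T * (κ / (2 * N)))) ∪
        ⋃ a ∈ A, closedBall (pt T ((a + 1 / 2) / N)) (T * (1 / 2 / N))) := fun z hz => by
    obtain ⟨x, h0, h1, rfl⟩ := exists_pt z
    by_contra hc
    simp only [Set.mem_union, Set.mem_iUnion, not_or, not_exists] at hc
    obtain ⟨⟨c1, c2⟩, c3, c4⟩ := hc
    refine hZ x ?_ ?_ (fun j => ?_) (fun ha => c4 _ ha (mem_ball_pt ?_)) hz
    · by_contra h
      exact c1 (mem_ball_pt (abs_le.2 ⟨by linarith, by linarith⟩))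
    · by_contra h
      exact c2 (mem_ball_pt (abs_le.2 ⟨by linarith, by linarith⟩))
    · by_contra h
      obtain ⟨a1, a2⟩ := abs_lt.1 (not_le.1 h)
      have a3 : (-1 : ℝ) < j := by nlinarith
      have a4 : (j : ℝ) < 2 * N + 1 := by nlinarith
      lift j to ℕ using (by have : (-1 : ℤ) < j := by exact_mod_cast a3
                            omega)
      refine c3 j (mem_range.2 (by exact_mod_cast a4)) (mem_ball_pt ?_)
      rw [show x - j / (2 * N) = (2 * N * x - j) / (2 * N) by field_simp, abs_div,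
        abs_of_pos (by positivity : (0 : ℝ) < 2 * N)]
      exact div_le_div_of_nonneg_right (not_le.1 h).le (by positivity)
    · have a1 := Nat.floor_le (show 0 ≤ N * x by positivity)
      have a2 := Nat.lt_floor_add_one (N * x)
      rw [show x - (⌊N * x⌋₊ + 1 / 2) / N = (N * x - (⌊N * x⌋₊ + 1 / 2)) / N by field_simp, abs_div,
        abs_of_pos (by positivity : (0 : ℝ) < N)]
      exact div_le_div_of_nonneg_right (abs_le.2 ⟨by linarith, by linarith⟩) (by positivity)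
  refine (measureReal_mono hs).trans ((measureReal_union_le _ _).trans ?_)
  have b1 := (measureReal_union_le _ _).trans (add_le_add (hb (pt T 0) κ hκ0.le) (hb (pt T 1) κ hκ0.le))
  have b2 := (measureReal_biUnion_finset_le (range (2 * N + 1)) _).trans (sum_le_card_nsmul _ _ _
    fun j _ => hb (pt T (j / (2 * N))) (κ / (2 * N)) (by positivity))
  have b3 := (measureReal_biUnion_finset_le A _).trans (sum_le_card_nsmul _ _ _
    fun a _ => hb (pt T ((a + 1 / 2) / N)) (1 / 2 / N) (by positivity))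
  have b4 : (range (2 * N + 1)).card • (2 * (κ / (2 * N))) ≤ 3 * κ := by
    rw [card_range, nsmul_eq_mul, ← mul_div_assoc, ← mul_div_assoc, div_le_iff₀ (by positivity)]
    push_cast
    nlinarith
  have b5 : A.card • (2 * (1 / 2 / (N : ℝ))) ≤ κ := by
    rw [nsmul_eq_mul, ← mul_div_assoc, ← mul_div_assoc, div_le_iff₀ (by positivity)]
    linarith
  linarith [measureReal_union_le (μ := haarAddCircle)
    (⋃ j ∈ range (2 * N + 1), closedBall (pt T (j / (2 * N))) (T * (κ / (2 * N))))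
    (⋃ a ∈ A, closedBall (pt T ((a + 1 / 2) / N)) (T * (1 / 2 / N)))]

theorem log_bd (C : ℕ) {J : ℕ} (hJ : 1 ≤ J) :
    √(log (10 * ((2 ^ J * (J * 2 ^ (2 * (C * J ^ 2)) + 1) : ℕ) : ℝ) ^ 2 / (2 ^ J : ℕ))) ≤
      √(10 + 4 * C) * J := by
  have hJ' : (1 : ℝ) ≤ J := by exact_mod_cast hJ
  have a0 : 0 < 2 ^ J * (J * 2 ^ (2 * (C * J ^ 2)) + 1) := by positivity
  have a1 : 2 ^ J * (J * 2 ^ (2 * (C * J ^ 2)) + 1) ≤ 2 ^ (2 * J + 2 * (C * J ^ 2) + 1) := by
    have b1 : J * 2 ^ (2 * (C * J ^ 2)) ≤ 2 ^ J * 2 ^ (2 * (C * J ^ 2)) :=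
      Nat.mul_le_mul_right _ Nat.lt_two_pow_self.le
    have b2 : 0 < 2 ^ J * 2 ^ (2 * (C * J ^ 2)) := by positivity
    calc _ ≤ 2 ^ J * (2 ^ J * 2 ^ (2 * (C * J ^ 2)) * 2) := Nat.mul_le_mul_left _ (by omega)
      _ = _ := by ring
  generalize 2 ^ J * (J * 2 ^ (2 * (C * J ^ 2)) + 1) = M at a0 a1
  have a2 : (10 * M ^ 2 / (2 ^ J : ℕ) : ℝ) ≤ 2 ^ (4 + (2 * J + 2 * (C * J ^ 2) + 1) * 2) := by
    refine (div_le_self (by positivity) (by exact_mod_cast Nat.two_pow_pos J)).trans ?_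
    rw [pow_add, pow_mul]
    exact mul_le_mul (by norm_num) (pow_le_pow_left₀ (by positivity) (by exact_mod_cast a1) 2)
      (by positivity) (by positivity)
  have a3 := log_le_log (by positivity) a2
  rw [log_pow] at a3
  rw [← sqrt_sq (Nat.cast_nonneg J), ← sqrt_mul (by positivity)]
  refine sqrt_le_sqrt (a3.trans ((mul_le_of_le_one_right (by positivity)
    (by linarith [log_two_lt_d9])).trans ?_))
  push_cast
  nlinarith

theorem num_bd {κ ε J L : ℝ} (hκ0 : 0 < κ) (hκ : κ ≤ 1) (ε0 : 0 < ε) (hε : ε ≤ κ ^ 4 / 3000)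
    (hJ : (6 / κ ^ 2 + 1) * 50 / κ < J) (hL : J / 2 ≤ L) :
    κ / 50 * J + 1 < (κ / 7 - 2 / κ ^ 2 * (2 * π * ε)) * L - 2 / κ ^ 2 * (8 * π * ε * J / κ) -
      6 / κ ^ 2 := by
  have J0 : 0 < J := lt_trans (by positivity) hJ
  have k2 : κ ^ 4 ≤ κ ^ 3 := pow_le_pow_of_le_one hκ0.le hκ (by norm_num)
  have a2 : π * ε ≤ 3.15 * ε := mul_le_mul_of_nonneg_right pi_lt_d2.le ε0.le
  have a3 : 2 * π * ε ≤ κ ^ 3 / 400 := by linarith
  have a4 : 2 / κ ^ 2 * (2 * π * ε) ≤ κ / 200 :=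
    (mul_le_mul_of_nonneg_left a3 (by positivity)).trans (le_of_eq (by field_simp; norm_num))
  have a5 : 2 / κ ^ 2 * (8 * π * ε * J / κ) ≤ κ / 50 * J := by
    have : 8 * π * ε ≤ κ ^ 4 / 100 := by linarith
    calc _ ≤ 2 / κ ^ 2 * (κ ^ 4 / 100 * J / κ) := by gcongr
      _ = _ := by field_simp; norm_num
  have a6 := mul_le_mul (show κ / 8 ≤ κ / 7 - 2 / κ ^ 2 * (2 * π * ε) by linarith) hL
    (by positivity) (by linarith)
  rw [div_lt_iff₀ hκ0] at hJ
  linarith [mul_pos hκ0 J0]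

theorem basic {η : ℝ} (hη : 0 < η) : ∃ c : ℝ, 0 < c ∧ ∀ H0 : ℝ, ∃ H, H0 ≤ H ∧
    ∃ E : Set (AddCircle T), MeasurableSet E ∧ H * haarAddCircle.real E = 1 ∧ ∃ M : ℕ,
      haarAddCircle.real {z | ∀ n ≤ M, ‖SN n (E.indicator fun _ => (H : ℂ)) z‖ ≤
        c * √(log H)} ≤ η := by
  obtain ⟨κ, hκ0, hκ, hκη⟩ : ∃ κ : ℝ, 0 < κ ∧ κ ≤ 1 ∧ 8 * κ ≤ η :=
    ⟨min 1 (η / 8), by positivity, min_le_left _ _, by linarith [min_le_right 1 (η / 8)]⟩
  obtain ⟨C, hC⟩ := exists_nat_ge (3000 / κ ^ 4)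
  have hC0 : (0 : ℝ) < C := lt_of_lt_of_le (by positivity) hC
  have hε : 1 / (C : ℝ) ≤ κ ^ 4 / 3000 := by
    rw [← one_div_div 3000]
    exact one_div_le_one_div_of_le (by positivity) hC
  refine ⟨κ / 50 / √(10 + 4 * C), by positivity, fun H0 => ?_⟩
  obtain ⟨J, hJ⟩ := exists_nat_gt (max (max 1 H0) ((6 / κ ^ 2 + 1) * 50 / κ))
  simp only [max_lt_iff] at hJ
  obtain ⟨⟨hJ1, hJ2⟩, hJ3⟩ := hJ
  have hJ0 : 1 ≤ J := by exact_mod_cast hJ1.le
  have hS : 0 < C * J ^ 2 := Nat.mul_pos (by exact_mod_cast hC0) (by positivity)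
  have w0 : ∀ a y, 0 ≤ ww a y := fun a y => by unfold ww; positivity
  obtain ⟨v, τ, R, hv, hτ, hR0, hR, hsum⟩ := comb J (C * J ^ 2) hS ww w0
  set ε : ℝ := 1 / C with hεd
  have ε0 : 0 < ε := by positivity
  have k3 : κ ^ 4 ≤ κ := pow_le_of_le_one hκ0.le hκ (by norm_num)
  have hτ' : ∀ y, 0 ≤ τ y ∧ τ y ≤ ε := fun y => ⟨(hτ y).1, (hτ y).2.trans (by
    push_cast
    rw [hεd, div_le_div_iff₀ (by positivity) hC0]
    nlinarith [mul_pos hC0 (show (0 : ℝ) < J by linarith)])⟩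
  set N := 2 ^ J with hNd
  have hN : 0 < N := Nat.two_pow_pos J
  have hN' : (0 : ℝ) < N := by exact_mod_cast hN
  set M := N * (J * 2 ^ (2 * (C * J ^ 2)) + 1) with hMd
  have hM : N ≤ M := Nat.le_mul_of_pos_right _ (Nat.succ_pos _)
  have hM' : (N : ℝ) ≤ M := by exact_mod_cast hM
  have hJN : (J : ℝ) ≤ N := by exact_mod_cast Nat.lt_two_pow_self.le
  obtain ⟨E, mE, hE, hap⟩ := approx (T := T) hN hM τ fun y =>
    ⟨(hτ' y).1, by linarith [(hτ' y).2]⟩
  have hH : (M : ℝ) ≤ 10 * M ^ 2 / N := by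
    rw [le_div_iff₀ hN']
    nlinarith
  refine ⟨_, by linarith, E, mE, hE, M, le_trans ?_ hκη⟩
  have hlog : √(log (10 * M ^ 2 / N)) ≤ √(10 + 4 * C) * J := log_bd C hJ0
  set B : ℝ := 8 * π * ε * J / κ with hB
  have B0 : 0 < B := by positivity
  refine bad_cover hκ0 hκ hN ((range N).filter fun a => B < ∑ y ∈ range N, R a y * ww a y) ?_
    fun x h1 h2 h3 h4 hz => ?_
  · have a1 := card_nsmul_le_sum ((range N).filter fun a => B < ∑ y ∈ range N, R a y * ww a y)
      _ _ fun a ha => (mem_filter.1 ha).2.le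
    have a2 := a1.trans ((sum_le_sum_of_subset_of_nonneg (filter_subset _ _) fun a _ _ =>
      sum_nonneg fun y _ => mul_nonneg (hR0 a y) (w0 a y)).trans (hsum.trans
        (mul_le_mul_of_nonneg_left (sum_le_card_nsmul _ _ _ fun a ha =>
          (sum_ww_bd hJ0 (mem_range.1 ha)).2) (by positivity))))
    rw [nsmul_eq_mul, nsmul_eq_mul, card_range] at a2
    refine le_of_mul_le_mul_right (a2.trans (le_of_eq ?_)) B0
    rw [hB, hεd]
    push_cast
    field_simp
    ring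
  · have hx : 0 ≤ N * x := mul_nonneg hN'.le (by linarith)
    have ha : ⌊N * x⌋₊ < N := (Nat.floor_lt hx).2 (mul_lt_of_lt_one_right hN' (by linarith))
    obtain ⟨n, hn, hk⟩ := kern hκ0 hκ (by linarith) hτ' ha (hR _ ha)
      (not_lt.1 fun h => h4 (mem_filter.2 ⟨mem_range.2 ha, h⟩)) h1 h2 h3
      (Nat.floor_le hx) (Nat.lt_floor_add_one _).le
    have hn' : n ≤ M := hn.trans (Nat.mul_le_mul_left _ (Nat.succ_le_succ (hv _)))
    have a1 := norm_sub_norm_le _ _ |>.trans ((norm_sub_rev _ _).trans_le (hap n hn' x))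
    have a2 := (hz n hn').trans (mul_le_mul_of_nonneg_left hlog (by positivity))
    rw [← mul_assoc, div_mul_cancel₀ _ (by positivity)] at a2
    linarith [num_bd hκ0 hκ ε0 hε hJ3 (sum_ww_bd hJ0 ha).1]

end Vale.Agent.P091
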