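import Mathlib

/-! Sparse hashing: a bilinear phase that detects the order of two integers. -/

namespace Vale.Agent.P091

open Finset Real

noncomputable def ee (t : ℝ) : ℂ := Complex.exp (Complex.I * (2 * π * t : ℝ))

theorem ee_add (s t : ℝ) : ee (s + t) = ee s * ee t := by
  simp only [ee, ← Complex.exp_add]
  congr 1
  push_cast
  ring

theorem ee_nat (n : ℕ) : ee n = 1 := by
  rw [ee, ← Complex.exp_nat_mul_two_pi_mul_I n]
  congr 1
  push_cast
  ring

theorem ee_half : ee (1 / 2) = -1 := by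
  rw [ee, ← Complex.exp_pi_mul_I]
  congr 1
  push_cast
  ring

theorem norm_ee (t : ℝ) : ‖ee t‖ = 1 := by
  rw [ee, mul_comm, Complex.norm_exp_ofReal_mul_I]

theorem ee_sub_one (t : ℝ) : ‖ee t - 1‖ ≤ 2 * π * |t| := by
  refine Real.norm_exp_I_mul_ofReal_sub_one_le.trans ?_
  rw [Real.norm_eq_abs, abs_mul, abs_of_pos (by positivity : 0 < 2 * π)]

theorem ee_sum {ι : Type*} (s : Finset ι) (f : ι → ℝ) : ee (∑ i ∈ s, f i) = ∏ i ∈ s, ee (f i) := by
  classical
  induction s using Finset.induction_on with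
  | empty => simpa using ee_nat 0
  | insert i s hi ih => rw [sum_insert hi, prod_insert hi, ee_add, ih]

theorem prod_sub_prod {ι : Type*} (s : Finset ι) {z w : ι → ℂ} (hz : ∀ i, ‖z i‖ = 1)
    (hw : ∀ i, ‖w i‖ = 1) : ‖∏ i ∈ s, z i - ∏ i ∈ s, w i‖ ≤ ∑ i ∈ s, ‖z i - w i‖ := by
  classical
  induction s using Finset.induction_on with
  | empty => simp
  | insert i s hi ih =>
    rw [sum_insert hi, prod_insert hi, prod_insert hi,
      show z i * ∏ i ∈ s, z i - w i * ∏ i ∈ s, w i =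
        (z i - w i) * ∏ i ∈ s, w i + z i * (∏ i ∈ s, z i - ∏ i ∈ s, w i) by ring]
    refine (norm_add_le _ _).trans ?_
    rw [norm_mul, norm_mul, hz, norm_prod, prod_congr rfl fun i _ => hw i, prod_const_one,
      mul_one, one_mul]
    linarith

/-- the node of the binary tree above the bit `k` of `a` -/
def nd (J : ℕ) (k : Fin J) (a : ℕ) : Fin J × Fin (2 ^ J) :=
  (k, ⟨a / 2 ^ (k.1 + 1) % 2 ^ J, Nat.mod_lt _ (Nat.two_pow_pos J)⟩)

def XX (J a : ℕ) : Finset (Fin J) := univ.filter fun k => a / 2 ^ k.1 % 2 = 1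

def YY (J y : ℕ) : Finset (Fin J) := univ.filter fun k => y / 2 ^ k.1 % 2 = 0

theorem nd_eq {J a y : ℕ} (ha : a < 2 ^ J) (hy : y < 2 ^ J) {k k' : Fin J} :
    nd J k a = nd J k' y ↔ k = k' ∧ a / 2 ^ k.1 / 2 = y / 2 ^ k.1 / 2 := by
  have h : ∀ (b : ℕ) (k : ℕ), b < 2 ^ J → b / 2 ^ (k + 1) % 2 ^ J = b / 2 ^ k / 2 :=
    fun b k hb => by
      rw [Nat.mod_eq_of_lt ((Nat.div_le_self _ _).trans_lt hb), pow_succ, Nat.div_div_eq_div_mul]
  simp only [nd, Prod.mk.injEq, Fin.mk.injEq, h _ _ ha, h _ _ hy]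
  constructor <;> rintro ⟨rfl, h⟩ <;> exact ⟨rfl, h⟩

theorem card_match {J a y : ℕ} (ha : a < 2 ^ J) (hy : y < 2 ^ J) :
    ((XX J a ×ˢ YY J y).filter fun p => nd J p.1 a = nd J p.2 y).card = if y < a then 1 else 0 := by
  have key : ∀ p, p ∈ (XX J a ×ˢ YY J y).filter (fun p => nd J p.1 a = nd J p.2 y) ↔
      p.1 = p.2 ∧ a / 2 ^ p.1.1 = y / 2 ^ p.1.1 + 1 ∧ a / 2 ^ p.1.1 / 2 = y / 2 ^ p.1.1 / 2 := by
    rintro ⟨k, k'⟩
    simp only [mem_filter, mem_product, XX, YY, mem_univ, true_and, nd_eq ha hy]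
    constructor
    · rintro ⟨⟨h1, h2⟩, rfl, h3⟩
      exact ⟨rfl, by omega, h3⟩
    · rintro ⟨rfl, h1, h2⟩
      exact ⟨⟨by omega, by omega⟩, rfl, h2⟩
  split_ifs with h
  · have hex : ∃ k, a / 2 ^ k = y / 2 ^ k :=
      ⟨J, by rw [Nat.div_eq_of_lt ha, Nat.div_eq_of_lt hy]⟩
    have h1 := Nat.find_spec hex
    have h2 : Nat.find hex ≤ J :=
      Nat.find_min' hex (by rw [Nat.div_eq_of_lt ha, Nat.div_eq_of_lt hy])
    obtain ⟨k, hk⟩ : ∃ k, Nat.find hex = k + 1 := Nat.exists_eq_succ_of_ne_zero fun h0 => by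
      rw [h0] at h1
      omega
    have h3 := Nat.find_min hex (show k < Nat.find hex by omega)
    have h4 : y / 2 ^ k ≤ a / 2 ^ k := Nat.div_le_div_right h.le
    rw [hk, pow_succ, ← Nat.div_div_eq_div_mul, ← Nat.div_div_eq_div_mul] at h1
    refine card_eq_one.2 ⟨(⟨k, by omega⟩, ⟨k, by omega⟩), eq_singleton_iff_unique_mem.2
      ⟨(key _).2 ⟨rfl, by dsimp only; omega, h1⟩, ?_⟩⟩
    rintro ⟨j, j'⟩ hj
    obtain ⟨h5, h6, h7⟩ := (key _).1 hj
    dsimp only at h5 h6 h7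
    subst h5
    have h8 : Nat.find hex ≤ j.1 + 1 := Nat.find_min' hex (by
      rw [pow_succ, ← Nat.div_div_eq_div_mul, ← Nat.div_div_eq_div_mul, h7])
    have h9 : j.1 = k := by
      by_contra hc
      obtain ⟨d, hd⟩ := Nat.exists_eq_add_of_lt (show k < j.1 by omega)
      rw [hd, show k + d + 1 = k + 1 + d by ring, pow_add, pow_succ, ← Nat.div_div_eq_div_mul,
        ← Nat.div_div_eq_div_mul, ← Nat.div_div_eq_div_mul, ← Nat.div_div_eq_div_mul, h1] at h6
      omega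
    simp only [Prod.mk.injEq, and_self]
    exact Fin.ext h9
  · refine card_eq_zero.2 (eq_empty_of_forall_notMem fun p hp => ?_)
    have h1 := ((key p).1 hp).2.1
    have h2 : a / 2 ^ p.1.1 ≤ y / 2 ^ p.1.1 := Nat.div_le_div_right (not_lt.1 h)
    omega

noncomputable def ps (p q : ℕ) : ℝ := if p ≤ q then π * 2 ^ p / 2 ^ q else 0

theorem ps_nonneg (p q : ℕ) : 0 ≤ ps p q := by
  unfold ps
  split_ifs <;> positivity

theorem ee_ps (S p q : ℕ) : ‖ee (2 ^ (S + p) * (1 / 2 ^ (S + q + 1))) - 1‖ ≤ ps p q := by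
  unfold ps
  split_ifs with h
  · refine (ee_sub_one _).trans (le_of_eq ?_)
    rw [abs_of_pos (by positivity), pow_add, pow_succ, pow_add]
    field_simp
  · obtain ⟨d, rfl⟩ := Nat.exists_eq_add_of_lt (not_le.1 h)
    have : (2 : ℝ) ^ (S + (q + d + 1)) * (1 / 2 ^ (S + q + 1)) = (2 ^ d : ℕ) := by
      push_cast
      simp only [pow_add]
      field_simp
    rw [this, ee_nat, sub_self, norm_zero]

theorem sum_ps (S q : ℕ) : ∑ u : Fin S, ps u q ≤ 2 * π := by
  have h : ∀ n : ℕ, ∑ u ∈ range n, (2 : ℝ) ^ u ≤ 2 ^ n := fun n => by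
    induction n with
    | zero => simp
    | succ n ih => rw [sum_range_succ, pow_succ]; linarith
  rw [Fin.sum_univ_eq_sum_range (fun u => ps u q)]
  unfold ps
  rw [← sum_filter]
  refine (sum_le_sum_of_subset_of_nonneg (t := range (q + 1)) (fun u hu => ?_)
    fun _ _ _ => by positivity).trans ?_
  · have := (mem_filter.1 hu).2
    rw [mem_range]
    omega
  · rw [← sum_div, ← mul_sum, div_le_iff₀ (by positivity)]
    have := mul_le_mul_of_nonneg_left (h (q + 1)) pi_pos.le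
    rw [pow_succ] at this
    linarith

theorem avg_pair {I : Type} [Fintype I] [DecidableEq I] {S : ℕ} (hS : 0 < S) {i j : I}
    (hij : i ≠ j) :
    ∑ h : I → Fin S, ps (h i) (h j) ≤ 2 * π / S * Fintype.card (I → Fin S) := by
  have hS' : (0 : ℝ) < S := by exact_mod_cast hS
  rw [← (Equiv.funSplitAt i (Fin S)).symm.sum_comp, Fintype.sum_prod_type_right,
    Fintype.card_congr (Equiv.funSplitAt i (Fin S)), Fintype.card_prod, Fintype.card_fin]
  refine (sum_le_card_nsmul _ _ (2 * π) fun g _ => ?_).trans (le_of_eq ?_)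
  · simpa [hij.symm] using sum_ps S (g ⟨j, hij.symm⟩)
  · rw [card_univ, nsmul_eq_mul]
    push_cast
    field_simp

theorem comb (J S : ℕ) (hS : 0 < S) (w : ℕ → ℕ → ℝ) (hw : ∀ a y, 0 ≤ w a y) :
    ∃ (v : ℕ → ℕ) (τ : ℕ → ℝ) (R : ℕ → ℕ → ℝ), (∀ a, v a ≤ J * 2 ^ (2 * S)) ∧
      (∀ y, 0 ≤ τ y ∧ τ y ≤ J / S) ∧ (∀ a y, 0 ≤ R a y) ∧
      (∀ a < 2 ^ J, ∀ y < 2 ^ J, ‖ee (v a * τ y) - (if y < a then -1 else 1)‖ ≤ R a y) ∧
      ∑ a ∈ range (2 ^ J), ∑ y ∈ range (2 ^ J), R a y * w a y ≤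
        J ^ 2 * (2 * π / S) * ∑ a ∈ range (2 ^ J), ∑ y ∈ range (2 ^ J), w a y := by
  have : Nonempty (Fin S) := ⟨⟨0, hS⟩⟩
  have hS' : (0 : ℝ) < S := by exact_mod_cast hS
  set R : (Fin J × Fin (2 ^ J) → Fin S) → ℕ → ℕ → ℝ := fun h a y => ∑ p ∈ XX J a ×ˢ YY J y,
    if nd J p.1 a = nd J p.2 y then 0 else ps (h (nd J p.1 a)) (h (nd J p.2 y)) with hR
  have cX : ∀ s : Finset (Fin J), s.card ≤ J := fun s => by simpa using card_le_univ s
  have h1 : ∀ a y, ∑ h, R h a y ≤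
      J ^ 2 * (2 * π / S) * Fintype.card (Fin J × Fin (2 ^ J) → Fin S) := fun a y => by
    rw [sum_comm, mul_assoc]
    refine (sum_le_card_nsmul _ _ (2 * π / S * Fintype.card (Fin J × Fin (2 ^ J) → Fin S))
      fun p _ => ?_).trans ?_
    · split_ifs with h
      · rw [sum_const_zero]
        positivity
      · exact avg_pair hS h
    · rw [nsmul_eq_mul, card_product, sq]
      refine mul_le_mul_of_nonneg_right ?_ (by positivity)
      exact_mod_cast Nat.mul_le_mul (cX _) (cX _)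
  obtain ⟨h, -, hh⟩ := exists_le_of_sum_le (s := univ) univ_nonempty
    (f := fun h => ∑ a ∈ range (2 ^ J), ∑ y ∈ range (2 ^ J), R h a y * w a y)
    (g := fun _ => J ^ 2 * (2 * π / S) * ∑ a ∈ range (2 ^ J), ∑ y ∈ range (2 ^ J), w a y) (by
      rw [sum_const, card_univ, nsmul_eq_mul, sum_comm, ← mul_assoc, mul_sum]
      refine sum_le_sum fun a _ => ?_
      rw [sum_comm, mul_sum]
      refine sum_le_sum fun y _ => ?_
      rw [← sum_mul, mul_comm (Fintype.card _ : ℝ)]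
      exact mul_le_mul_of_nonneg_right (h1 a y) (hw a y))
  refine ⟨fun a => ∑ k ∈ XX J a, 2 ^ (S + h (nd J k a)),
    fun y => ∑ k ∈ YY J y, 1 / 2 ^ (S + h (nd J k y) + 1), R h, fun a => ?_, fun y => ⟨?_, ?_⟩,
    fun a y => ?_, fun a ha y hy => ?_, hh⟩
  · refine (sum_le_card_nsmul _ _ (2 ^ (2 * S)) fun k _ => ?_).trans (Nat.mul_le_mul_right _ (cX _))
    exact Nat.pow_le_pow_right two_pos (by have := (h (nd J k a)).2; omega)
  · positivity
  · refine (sum_le_card_nsmul _ _ (1 / S : ℝ) fun k _ => ?_).trans ?_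
    · refine one_div_le_one_div_of_le hS' ?_
      exact_mod_cast (Nat.lt_two_pow_self.le.trans (Nat.pow_le_pow_right two_pos (by omega)))
    · rw [nsmul_eq_mul, mul_one_div]
      exact div_le_div_of_nonneg_right (by exact_mod_cast cX _) hS'.le
  · refine sum_nonneg fun p _ => ?_
    split_ifs
    · exact le_rfl
    · exact ps_nonneg _ _
  · have e : (if y < a then -1 else 1 : ℂ) =
        ∏ p ∈ XX J a ×ˢ YY J y, if nd J p.1 a = nd J p.2 y then -1 else 1 := by
      rw [prod_ite, prod_const, prod_const_one, card_match ha hy]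
      split_ifs <;> simp
    push_cast
    rw [sum_mul_sum, ← sum_product', ee_sum, e]
    refine (prod_sub_prod _ (fun _ => norm_ee _) fun p => by split_ifs <;> simp).trans
      (sum_le_sum fun p _ => ?_)
    split_ifs with hp
    · rw [hp, pow_succ, show ∀ x : ℝ, x ≠ 0 → x * (1 / (x * 2)) = 1 / 2 from
        fun x hx => by field_simp, ee_half, sub_self, norm_zero]
      positivity
    · exact ee_ps _ _ _

end Vale.Agent.P091
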