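import Vale.Agent.P091.Basic

/-! The gliding hump argument. -/

namespace Vale.Agent.P091

open Finset Real MeasureTheory AddCircle Filter Topology Asymptotics

variable {T : ℝ} [hT : Fact (0 < T)]

theorem SN_add (n : ℕ) {f g : AddCircle T → ℂ} (hf : Integrable f haarAddCircle)
    (hg : Integrable g haarAddCircle) (x : AddCircle T) :
    SN n (f + g) x = SN n f x + SN n g x := by
  simp only [SN, fourierCoeff.add hf hg, Pi.add_apply, add_mul, sum_add_distrib]

theorem SN_mul (n : ℕ) (c : ℂ) (f : AddCircle T → ℂ) (x : AddCircle T) :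
    SN n (fun z => c * f z) x = c * SN n f x := by
  simp only [SN, fourierCoeff.const_mul, mul_sum, mul_assoc]

theorem SN_norm (n : ℕ) (f : AddCircle T → ℂ) (x : AddCircle T) :
    ‖SN n f x‖ ≤ (2 * n + 1) * ∫ z, ‖f z‖ ∂haarAddCircle := by
  refine (norm_sum_le_of_le (n := fun _ => ∫ z, ‖f z‖ ∂haarAddCircle) _ fun k _ => ?_).trans
    (le_of_eq ?_)
  · rw [norm_mul, fourier_apply, Circle.norm_coe, mul_one]
    refine (norm_integral_le_integral_norm _).trans (le_of_eq ?_)
    simp only [norm_smul, fourier_apply, Circle.norm_coe, one_mul]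
  · rw [sum_const, Int.card_Icc, nsmul_eq_mul, show ((n : ℤ) + 1 - -n).toNat = 2 * n + 1 by omega]
    push_cast
    rfl

theorem meas_bad (f : AddCircle T → ℂ) (M : ℕ) (l : ℝ) :
    MeasurableSet {z | ∀ n ≤ M, ‖SN n f z‖ ≤ l} := by
  simp only [Set.ofPred_forall]
  refine MeasurableSet.iInter fun n => MeasurableSet.iInter fun _ => measurableSet_le ?_
    measurable_const
  exact (continuous_finsetSum _ fun k _ => continuous_const.mul (fourier k).continuous).norm.measurable

theorem big {φ : ℝ → ℝ} (hφ : φ =o[atTop] fun u => u * √(log u)) {Λ K δ : ℝ} (hΛ : 0 ≤ Λ)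
    (hK : 0 < K) (hδ : 0 < δ) : ∀ᶠ H : ℝ in atTop, 1 < H ∧ 1 / H ≤ δ ∧ K / √(log H) ≤ δ ∧
      φ (Λ + K / √(log H) * H) / H ≤ δ := by
  have t1 : Tendsto (fun H : ℝ => K / √(log H)) atTop (𝓝 0) :=
    (tendsto_sqrt_atTop.comp tendsto_log_atTop).const_div_atTop K
  have t2 : Tendsto (fun H : ℝ => K / √(log H) * H) atTop atTop := by
    refine tendsto_atTop_mono' _ ?_ (tendsto_sqrt_atTop.const_mul_atTop hK)
    filter_upwards [eventually_gt_atTop 1] with H h1
    have h0 : 0 < √(log H) := sqrt_pos.2 (log_pos h1)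
    rw [div_mul_eq_mul_div, le_div_iff₀ h0, mul_assoc]
    refine mul_le_mul_of_nonneg_left ?_ hK.le
    exact (mul_le_mul_of_nonneg_left (sqrt_le_sqrt (log_le_self (by linarith))) (sqrt_nonneg _)).trans
      (mul_self_sqrt (by linarith)).le
  have t3 := (tendsto_atTop_add_const_left _ Λ t2).eventually
    (hφ.bound (show 0 < δ / (2 * K) by positivity))
  filter_upwards [eventually_gt_atTop 1, eventually_ge_atTop (1 / δ), t3,
    t1.eventually_le_const hδ, t1.eventually_le_const one_half_pos, t2.eventually_ge_atTop Λ,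
    t2.eventually_gt_atTop 0, eventually_ge_atTop (2 * Λ)] with H h1 h2 h3 h4 h5 h6 h7 h8
  have h0 : 0 < √(log H) := sqrt_pos.2 (log_pos h1)
  refine ⟨h1, (one_div_le (by linarith) hδ).2 h2, h4, ?_⟩
  have h9 : Λ + K / √(log H) * H ≤ H := by nlinarith
  have h10 := mul_le_mul (show Λ + K / √(log H) * H ≤ 2 * (K / √(log H) * H) by linarith)
    (sqrt_le_sqrt (log_le_log (by linarith) h9)) (sqrt_nonneg _) (by linarith)
  rw [Real.norm_of_nonneg (mul_nonneg (by linarith) (sqrt_nonneg _))] at h3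
  rw [div_le_iff₀ (by linarith)]
  refine (le_abs_self _).trans (h3.trans ((mul_le_mul_of_nonneg_left h10 (by positivity)).trans
    (le_of_eq ?_)))
  field_simp

theorem step {φ : ℝ → ℝ} (hm : MonotoneOn φ (Set.Ici 0))
    (hφ : φ =o[atTop] fun u => u * √(log u)) (F : AddCircle T → ℂ) (Λ δ : ℝ) (j : ℕ)
    (hF : Integrable F haarAddCircle) (hΛ : 0 ≤ Λ) (hδ : 0 < δ) :
    ∃ (s : ℝ) (E : Set (AddCircle T)) (M : ℕ), 0 ≤ s ∧ MeasurableSet E ∧
      s * haarAddCircle.real E ≤ δ ∧ 1 * haarAddCircle.real E ≤ δ ∧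
      φ (Λ + s) * haarAddCircle.real E ≤ δ ∧ haarAddCircle.real
        {z | ∀ n ≤ M, ‖SN n (F + E.indicator fun _ => (s : ℂ)) z‖ ≤ j + 1} ≤ 2 * (1 / (j + 1)) := by
  obtain ⟨c, hc, hb⟩ := basic (T := T) (show (0 : ℝ) < 1 / (j + 1) by positivity)
  obtain ⟨H0, hH0⟩ := eventually_atTop.1 (big hφ hΛ
    (show 0 < (j + 1) * (2 * (j + 1) / c) by positivity) hδ)
  obtain ⟨H, hH, E, mE, hE, M, hM⟩ := hb H0
  obtain ⟨h1, h2, h3, h4⟩ := hH0 H hH
  have h0 : 0 < √(log H) := sqrt_pos.2 (log_pos h1)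
  have hE' : haarAddCircle.real E = 1 / H := eq_one_div_of_mul_eq_one_right hE
  set t : ℝ := 2 * (j + 1) / c / √(log H) with ht
  have t0 : 0 < t := by positivity
  rw [mul_div_assoc, ← ht] at h3 h4
  set g : AddCircle T → ℂ := E.indicator fun _ => (H : ℂ) with hg
  have ig : Integrable g haarAddCircle := (integrable_const _).indicator mE
  have e1 : ∀ (a : ℝ) n z, SN n (F + E.indicator fun _ => ((a * H : ℝ) : ℂ)) z =
      SN n F z + a * SN n g z := fun a n z => by
    rw [SN_add n hF ((integrable_const _).indicator mE), ← SN_mul, hg]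
    simp only [← Set.indicator_const_mul, Complex.ofReal_mul]
  set Z := {z | ∀ n ≤ M, ‖SN n g z‖ ≤ c * √(log H)} with hZ
  set B : ℕ → Set (AddCircle T) := fun i =>
    {z | ∀ n ≤ M, ‖SN n (F + E.indicator fun _ => ((i * t * H : ℝ) : ℂ)) z‖ ≤ j + 1} with hB
  have hd : Set.PairwiseDisjoint (range (j + 1) : Set ℕ) fun i => B i \ Z := by
    intro i _ i' _ hi
    refine Set.disjoint_left.2 fun z h5 h6 => h5.2 fun n hn => ?_
    have a1 := (norm_sub_le _ _).trans (add_le_add (h5.1 n hn) (h6.1 n hn))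
    rw [e1, e1, add_sub_add_left_eq_sub, ← sub_mul, norm_mul, ← Complex.ofReal_sub,
      Complex.norm_real, ← sub_mul, norm_mul, Real.norm_of_nonneg t0.le, Real.norm_eq_abs] at a1
    have a2 : (1 : ℝ) ≤ |(i : ℝ) - i'| := by
      exact_mod_cast Int.one_le_abs (show (i : ℤ) - i' ≠ 0 by omega)
    have a3 : t * (c * √(log H)) = 2 * (j + 1) := by rw [ht]; field_simp
    refine le_of_mul_le_mul_left ?_ t0
    nlinarith [mul_nonneg t0.le (norm_nonneg (SN n g z))]
  have a1 := sum_measureReal_le_measureReal_univ (μ := haarAddCircle)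
    (fun i _ => (meas_bad _ _ _).diff (meas_bad _ _ _)) hd
  obtain ⟨i, hi, a2⟩ := exists_le_of_sum_le (s := range (j + 1)) nonempty_range_add_one
    (g := fun _ => 1 / ((j : ℝ) + 1)) (a1.trans (by
      rw [probReal_univ, sum_const, card_range, nsmul_eq_mul]
      push_cast
      rw [mul_one_div_cancel (by positivity)]))
  have a3 : i * t ≤ (j + 1) * t :=
    mul_le_mul_of_nonneg_right (by exact_mod_cast (mem_range.1 hi).le) t0.le
  have a4 : 0 ≤ i * t * H := by positivity
  refine ⟨i * t * H, E, M, a4, mE, by rw [mul_assoc, hE]; linarith, by rw [hE']; linarith, ?_, ?_⟩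
  · rw [hE', mul_one_div]
    have a5 := mul_le_mul_of_nonneg_right a3 (by linarith : 0 ≤ H)
    exact (div_le_div_of_nonneg_right (hm (show 0 ≤ Λ + i * t * H by linarith)
      (show 0 ≤ Λ + (j + 1) * t * H by linarith) (by linarith)) (by linarith)).trans h4
  · have a5 := (measureReal_mono (μ := haarAddCircle) (Set.subset_sdiff_union (B i) Z)).trans
      (measureReal_union_le _ _)
    linarith

theorem lint {E : ℕ → Set (AddCircle T)} {s b : ℕ → ℝ} (mE : ∀ i, MeasurableSet (E i))
    (hs : ∀ i, 0 ≤ s i) (hb : ∀ i, s i * haarAddCircle.real (E i) ≤ b i) (hb' : Summable b) :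
    ∫⁻ x, ∑' i, (E i).indicator (fun _ => ENNReal.ofReal (s i)) x ∂haarAddCircle ≤
      ENNReal.ofReal (∑' i, b i) := by
  rw [lintegral_tsum fun i => (measurable_const.indicator (mE i)).aemeasurable,
    ENNReal.ofReal_tsum_of_nonneg (fun i => (mul_nonneg (hs i) measureReal_nonneg).trans (hb i)) hb']
  refine ENNReal.tsum_le_tsum fun i => ?_
  rw [lintegral_indicator_const (mE i), ← ofReal_measureReal, ← ENNReal.ofReal_mul (hs i)]
  exact ENNReal.ofReal_le_ofReal (hb i)

theorem tail {E : ℕ → Set (AddCircle T)} {s b : ℕ → ℝ} (mE : ∀ i, MeasurableSet (E i))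
    (hs : ∀ i, 0 ≤ s i) (hb : ∀ i, s i * haarAddCircle.real (E i) ≤ b i) (hb' : Summable b) :
    Integrable (fun x => ∑' i, (E i).indicator (fun _ => (s i : ℂ)) x) haarAddCircle ∧
      ∫ x, ‖∑' i, (E i).indicator (fun _ => (s i : ℂ)) x‖ ∂haarAddCircle ≤ ∑' i, b i := by
  have m : AEStronglyMeasurable (fun x => ∑' i, (E i).indicator (fun _ => (s i : ℂ)) x)
      haarAddCircle :=
    (Measurable.tsum fun i => measurable_const.indicator (mE i)).aestronglyMeasurable
  have h : ∫⁻ x, ‖∑' i, (E i).indicator (fun _ => (s i : ℂ)) x‖ₑ ∂haarAddCircle ≤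
      ENNReal.ofReal (∑' i, b i) := by
    refine (lintegral_mono fun x => enorm_tsum_le_tsum_enorm.trans (le_of_eq
      (tsum_congr fun i => ?_))).trans (lint mE hs hb hb')
    by_cases hx : x ∈ E i
    · rw [Set.indicator_of_mem hx, Set.indicator_of_mem hx, ← ofReal_norm,
        Complex.norm_real, Real.norm_of_nonneg (hs i)]
    · simp [hx]
  refine ⟨⟨m, h.trans_lt ENNReal.ofReal_lt_top⟩, ?_⟩
  rw [integral_norm_eq_lintegral_enorm m]
  exact ENNReal.toReal_le_of_le_ofReal
    (tsum_nonneg fun i => (mul_nonneg (hs i) measureReal_nonneg).trans (hb i)) h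

theorem seq {φ : ℝ → ℝ} (hm : MonotoneOn φ (Set.Ici 0))
    (hφ : φ =o[atTop] fun u => u * √(log u)) :
    ∃ (s : ℕ → ℝ) (E : ℕ → Set (AddCircle T)) (M : ℕ → ℕ) (δ : ℕ → ℝ), (∀ j, δ j ≤ (1 / 2) ^ j) ∧
      (∀ j i, δ (i + (j + 1)) ≤ (1 / 2) ^ i * (1 / 2 / (2 * M j + 1))) ∧ ∀ j, 0 ≤ s j ∧
      MeasurableSet (E j) ∧ s j * haarAddCircle.real (E j) ≤ δ j ∧
      1 * haarAddCircle.real (E j) ≤ δ j ∧
      φ (∑ i ∈ range (j + 1), s i) * haarAddCircle.real (E j) ≤ δ j ∧ haarAddCircle.real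
        {z | ∀ n ≤ M j, ‖SN n (∑ i ∈ range (j + 1), (E i).indicator fun _ => (s i : ℂ)) z‖ ≤
          j + 1} ≤ 2 * (1 / (j + 1)) := by
  choose! s E M h using step (T := T) hm hφ
  let st : ℕ → (AddCircle T → ℂ) × ℝ × ℝ := fun n => Nat.rec (0, 0, 1) (fun j p =>
    (p.1 + (E p.1 p.2.1 ((1 / 2) ^ j / p.2.2) j).indicator fun _ =>
      (s p.1 p.2.1 ((1 / 2) ^ j / p.2.2) j : ℂ), p.2.1 + s p.1 p.2.1 ((1 / 2) ^ j / p.2.2) j,
      p.2.2 + (2 * M p.1 p.2.1 ((1 / 2) ^ j / p.2.2) j + 1))) n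
  let δ : ℕ → ℝ := fun j => (1 / 2) ^ j / (st j).2.2
  let s' : ℕ → ℝ := fun j => s (st j).1 (st j).2.1 (δ j) j
  let E' : ℕ → Set (AddCircle T) := fun j => E (st j).1 (st j).2.1 (δ j) j
  let M' : ℕ → ℕ := fun j => M (st j).1 (st j).2.1 (δ j) j
  have e1 : ∀ j, (st j).1 = ∑ i ∈ range j, (E' i).indicator fun _ => (s' i : ℂ) := fun j => by
    induction j with
    | zero => rfl
    | succ j ih => rw [sum_range_succ, ← ih]
  have e2 : ∀ j, (st j).2.1 = ∑ i ∈ range j, s' i := fun j => by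
    induction j with
    | zero => rfl
    | succ j ih => rw [sum_range_succ, ← ih]
  have e3 : ∀ j, (st (j + 1)).2.2 = (st j).2.2 + (2 * M' j + 1) := fun j => rfl
  have d1 : Monotone fun j => (st j).2.2 := monotone_nat_of_le_succ fun j => by
    rw [e3]
    exact le_add_of_nonneg_right (by positivity)
  have d2 : ∀ j, 1 ≤ (st j).2.2 := fun j => d1 (Nat.zero_le j)
  have d3 : ∀ j, 0 < δ j := fun j => div_pos (by positivity) (one_pos.trans_le (d2 j))
  have key : ∀ j, Integrable (st j).1 haarAddCircle ∧ 0 ≤ (st j).2.1 := fun j => by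
    induction j with
    | zero => exact ⟨integrable_zero _ _ _, le_rfl⟩
    | succ j ih =>
      have := h _ _ _ j ih.1 ih.2 (d3 j)
      exact ⟨ih.1.add ((integrable_const _).indicator this.2.1), add_nonneg ih.2 this.1⟩
  refine ⟨s', E', M', δ, fun j => div_le_self (by positivity) (d2 j), fun j i => ?_, fun j => ?_⟩
  · have a1 : 2 * (M' j : ℝ) + 1 ≤ (st (i + (j + 1))).2.2 :=
      le_trans (by linarith [d2 j, e3 j]) (d1 (Nat.le_add_left (j + 1) i))
    refine (div_le_div_of_nonneg_left (by positivity) (by positivity) a1).trans ?_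
    rw [pow_add, mul_div_assoc]
    gcongr
    exact pow_le_of_le_one (by norm_num) (by norm_num) (by omega)
  · rw [← e1, ← e2]
    exact h _ _ _ j (key j).1 (key j).2 (d3 j)

theorem main {φ : ℝ → ℝ} (h0 : ∀ u, 0 ≤ u → 0 ≤ φ u) (hm : MonotoneOn φ (Set.Ici 0))
    (hφ : φ =o[atTop] fun u => u * √(log u)) :
    ∃ f : AddCircle T → ℂ, Measurable f ∧ Integrable f haarAddCircle ∧
      Integrable (fun x => φ ‖f x‖) haarAddCircle ∧
      ∀ᵐ x ∂haarAddCircle, ¬BddAbove (Set.range fun N => ‖SN N f x‖) := by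
  obtain ⟨s, E, M, δ, d1, d2, h⟩ := seq (T := T) hm hφ
  choose hs mE b1 b2 b3 b4 using h
  have sg := summable_geometric_two
  have mf : Measurable fun x => ∑' i, (E i).indicator (fun _ => (s i : ℂ)) x :=
    Measurable.tsum fun i => measurable_const.indicator (mE i)
  have fin : ∀ᵐ x ∂haarAddCircle, {i | x ∈ E i}.Finite := by
    refine ae_finite_setOfPred_mem (ne_top_of_le_ne_top ENNReal.ofReal_ne_top (le_trans (le_of_eq ?_)
      (lint mE (fun _ => zero_le_one) (fun i => (b2 i).trans (d1 i)) sg)))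
    rw [lintegral_tsum fun i => (measurable_const.indicator (mE i)).aemeasurable]
    simp [lintegral_indicator_const (mE _)]
  have i1 := (tail mE hs (fun i => (b1 i).trans (d1 i)) sg).1
  refine ⟨_, mf, i1, ⟨?_, ?_⟩, ?_⟩
  · have : Monotone fun u => φ (max u 0) := fun u v huv =>
      hm (le_max_right u 0) (le_max_right v 0) (max_le_max_right 0 huv)
    simpa [Function.comp_def] using (this.measurable.comp mf.norm).aestronglyMeasurable
  · have hS : ∀ j, 0 ≤ ∑ i ∈ range j, s i := fun j => sum_nonneg fun i _ => hs i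
    have := lint mE (fun j => h0 _ (hS (j + 1))) (fun i => (b3 i).trans (d1 i)) sg
    rw [hasFiniteIntegral_iff_ofReal (ae_of_all _ fun x => h0 _ (norm_nonneg _))]
    refine (lintegral_mono_ae (g := fun x => ENNReal.ofReal (φ 0) + ∑' j, (E j).indicator
      (fun _ => ENNReal.ofReal (φ (∑ i ∈ range (j + 1), s i))) x) ?_).trans_lt ?_
    · filter_upwards [fin] with x hx
      rcases {i | x ∈ E i}.eq_empty_or_nonempty with he | he
      · have : ∀ i, x ∉ E i := fun i hi => (Set.eq_empty_iff_forall_notMem.1 he) i hi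
        simp [this]
      · obtain ⟨j, hj, hj'⟩ := Set.exists_max_image _ id hx he
        refine le_add_left (le_trans ?_ (ENNReal.le_tsum j))
        rw [Set.indicator_of_mem (show x ∈ E j from hj), tsum_eq_sum (s := range (j + 1))
          fun i hi => Set.indicator_of_notMem (s := E i)
            (fun hi' => hi (mem_range_succ_iff.2 (hj' i hi'))) _]
        refine ENNReal.ofReal_le_ofReal (hm (norm_nonneg _) (hS _) (norm_sum_le_of_le _ fun i _ =>
          (norm_indicator_le_norm_self _ _).trans ?_))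
        rw [Complex.norm_real, Real.norm_of_nonneg (hs i)]
    · rw [lintegral_add_left measurable_const]
      exact ENNReal.add_lt_top.2 ⟨by simp, this.trans_lt ENNReal.ofReal_lt_top⟩
  · have key : ∀ j, ∀ n ≤ M j, ∀ z,
        ‖SN n (∑ i ∈ range (j + 1), (E i).indicator fun _ => (s i : ℂ)) z‖ ≤
          ‖SN n (fun x => ∑' i, (E i).indicator (fun _ => (s i : ℂ)) x) z‖ + 1 := by
      intro j n hn z
      obtain ⟨t1, t2⟩ := tail (fun i => mE (i + (j + 1))) (fun i => hs _)
        (fun i => (b1 _).trans (d2 j i)) (sg.mul_right _)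
      have e : (fun x => ∑' i, (E i).indicator (fun _ => (s i : ℂ)) x) =ᵐ[haarAddCircle]
          (∑ i ∈ range (j + 1), (E i).indicator fun _ => (s i : ℂ)) +
            fun x => ∑' i, (E (i + (j + 1))).indicator (fun _ => (s (i + (j + 1)) : ℂ)) x := by
        filter_upwards [fin] with x hx
        rw [Pi.add_apply, Finset.sum_apply]
        exact (Summable.sum_add_tsum_nat_add (j + 1) (summable_of_hasFiniteSupport
          (hx.subset fun i hi => Set.mem_of_indicator_ne_zero (s := E i) hi))).symm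
      have e' := SN_add n (integrable_finsetSum' (range (j + 1)) fun i _ =>
        (integrable_const (s i : ℂ)).indicator (mE i)) t1 z
      rw [SN, ← fourierCoeff_congr_ae e, ← SN] at e'
      rw [eq_sub_of_add_eq e'.symm]
      refine (norm_sub_le _ _).trans (add_le_add le_rfl ((SN_norm _ _ _).trans ?_))
      rw [tsum_mul_right, tsum_geometric_two, ← mul_div_assoc, mul_one_div_cancel two_ne_zero]
        at t2
      have hn' : (n : ℝ) ≤ M j := by exact_mod_cast hn
      refine (mul_le_mul_of_nonneg_left t2 (by positivity)).trans ?_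
      rw [mul_one_div, div_le_one (by positivity)]
      linarith
    have z : ∀ L : ℕ, haarAddCircle {x : AddCircle T | ∀ n,
        ‖SN n (fun x => ∑' i, (E i).indicator (fun _ => (s i : ℂ)) x) x‖ ≤ L} = 0 := fun L => by
      rw [← measureReal_eq_zero_iff]
      refine le_antisymm (ge_of_tendsto (by simpa only [mul_zero] using
        (tendsto_one_div_add_atTop_nhds_zero_nat (𝕜 := ℝ)).const_mul 2) ?_) measureReal_nonneg
      filter_upwards [eventually_ge_atTop L] with j hj
      refine le_trans (measureReal_mono ?_) (b4 j)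
      exact fun x hx n hn => (key j n hn x).trans
        (add_le_add ((hx n).trans (by exact_mod_cast hj)) le_rfl)
    rw [ae_iff]
    refine measure_mono_null (fun x hx => ?_) (measure_iUnion_null z)
    obtain ⟨L, hL⟩ := not_not.1 hx
    exact Set.mem_iUnion.2 ⟨⌈L⌉₊, fun n => (hL ⟨n, rfl⟩).trans (Nat.le_ceil L)⟩

end Vale.Agent.P091
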