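import Vale.Agent.P091.Comb

/-! A lower bound for averages of Dirichlet kernels. -/

namespace Vale.Agent.P091

open Finset Real

noncomputable def DK (n : ℕ) (s : ℝ) : ℂ := ∑ k ∈ Icc (-(n : ℤ)) n, ee (k * s)

theorem ee_re (t : ℝ) : (ee t).re = cos (2 * π * t) := by
  rw [ee, mul_comm, Complex.exp_ofReal_mul_I_re]

theorem ee_im (t : ℝ) : (ee t).im = sin (2 * π * t) := by
  rw [ee, mul_comm, Complex.exp_ofReal_mul_I_im]

theorem DK_re (n : ℕ) (s : ℝ) : (DK n s).re * sin (π * s) = sin ((2 * n + 1) * (π * s)) := by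
  induction n with
  | zero => simp [DK, ee_re]
  | succ n ih =>
    have e : Icc (-((n + 1 : ℕ) : ℤ)) (n + 1 : ℕ) =
        insert (-((n : ℤ) + 1)) (insert ((n : ℤ) + 1) (Icc (-(n : ℤ)) n)) := by
      ext k
      simp only [mem_Icc, mem_insert]
      omega
    rw [DK, e, sum_insert (by simp only [mem_Icc, mem_insert]; omega),
      sum_insert (by simp only [mem_Icc]; omega), ← DK, Complex.add_re, Complex.add_re, ee_re,
      ee_re, add_mul, add_mul, ih]
    push_cast
    rw [show 2 * π * (-((n : ℝ) + 1) * s) = -(2 * π * ((n + 1) * s)) by ring, cos_neg,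
      show (2 * (n : ℝ) + 1) * (π * s) = 2 * π * ((n + 1) * s) - π * s by ring,
      show (2 * ((n : ℝ) + 1) + 1) * (π * s) = 2 * π * ((n + 1) * s) + π * s by ring, sin_add,
      sin_sub]
    ring

theorem sin_low {κ t : ℝ} (hκ : κ ≤ 1) (h0 : 0 ≤ t) (h1 : t ≤ 1 - κ) (hκ0 : 0 ≤ κ) :
    2 * κ * t ≤ sin (π * t) := by
  have e : ∀ x : ℝ, 2 / π * (π * x) = 2 * x := fun x => by field_simp
  rcases le_total t (1 / 2) with h | h
  · have := mul_le_sin (x := π * t) (by positivity) (by nlinarith [pi_pos])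
    rw [e] at this
    nlinarith
  · have := mul_le_sin (x := π * (1 - t)) (mul_nonneg pi_pos.le (by linarith))
      (by nlinarith [pi_pos])
    rw [e, mul_sub, mul_sub, mul_one π, sin_pi_sub] at this
    nlinarith

theorem sin_close (α β σ : ℝ) :
    |sin (2 * π * (α - β)) - σ * sin (2 * π * α)| ≤ ‖ee β - σ‖ := by
  have : sin (2 * π * (α - β)) - σ * sin (2 * π * α) =
      (ee α * (starRingEnd ℂ) (ee β - σ)).im := by
    simp only [Complex.mul_im, Complex.conj_im, Complex.conj_re, Complex.sub_re, Complex.sub_im,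
      ee_re, ee_im, Complex.ofReal_re, Complex.ofReal_im, mul_sub, sin_sub]
    ring
  rw [this]
  refine (Complex.abs_im_le_norm _).trans (le_of_eq ?_)
  rw [norm_mul, norm_ee, one_mul, Complex.norm_conj]

theorem term_bd {κ N s σ σ0 c e d : ℝ} (n : ℕ) (hκ0 : 0 < κ) (hκ : κ ≤ 1) (hN : 0 < N)
    (hd : 0 < d) (hs : |s| ≤ 1 - κ) (h1 : κ * d / 4 ≤ N * |s|) (h2 : N * |s| ≤ 2 * d)
    (hσ : |s| = -σ * s) (hσ1 : σ = 1 ∨ σ = -1) (hσ0 : σ0 = 1 ∨ σ0 = -1) (hc : 0 ≤ σ0 * c)
    (he : |sin (2 * π * (n * s)) - σ * c| ≤ e) :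
    σ0 * c / 7 * (1 / d) - 2 / κ ^ 2 * (e * (1 / d)) - 2 / κ * (1 / N) ≤
      -σ0 * (1 / N * (DK n s).re) := by
  have hs0 : 0 < |s| := (mul_pos_iff_of_pos_left hN).1 ((by positivity : 0 < κ * d / 4).trans_le h1)
  have q1 := sin_low hκ hs0.le hs hκ0.le
  have q2 : sin (π * |s|) ≤ π * |s| := sin_le (by positivity)
  have q3 : sin (π * s) = -σ * sin (π * |s|) := by
    rcases hσ1 with rfl | rfl <;> rw [hσ] <;> simp
  have q0 : 0 < sin (π * |s|) := lt_of_lt_of_le (by positivity) q1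
  have q4 := DK_re n s
  have q5 : |sin ((2 * n + 1) * (π * s)) - sin (2 * π * (n * s))| ≤ π * |s| := by
    refine (abs_sin_sub_sin_le _ _).trans (le_of_eq ?_)
    rw [show (2 * n + 1) * (π * s) - 2 * π * (n * s) = π * s by ring, abs_mul, abs_of_pos pi_pos]
  have he0 : 0 ≤ e := (abs_nonneg _).trans he
  set q := sin (π * |s|)
  have w1 : 1 / 7 * (1 / d) ≤ 1 / (N * q) := by
    rw [one_div_mul_one_div]
    refine one_div_le_one_div_of_le (by positivity) ?_
    nlinarith [pi_lt_d2, mul_le_mul_of_nonneg_left q2 hN.le, mul_le_mul_of_nonneg_left h2 pi_pos.le]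
  have w2 : 1 / (N * q) ≤ 2 / κ ^ 2 * (1 / d) := by
    rw [div_mul_div_comm, mul_one, div_le_div_iff₀ (by positivity) (by positivity)]
    nlinarith [mul_le_mul_of_nonneg_left q1 hN.le]
  have w3 : π * |s| * (1 / (N * q)) ≤ 2 / κ * (1 / N) := by
    rw [div_mul_div_comm, mul_one, mul_one_div, div_le_div_iff₀ (by positivity) (by positivity)]
    nlinarith [mul_le_mul_of_nonneg_left q1 hN.le, pi_le_four,
      show 0 < κ * N * |s| by positivity]
  have w4 : -σ0 * (1 / N * (DK n s).re) =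
      σ0 * σ * sin ((2 * n + 1) * (π * s)) * (1 / (N * q)) := by
    rw [← q4, q3]
    rcases hσ1 with rfl | rfl <;> field_simp
  have w5 : σ0 * c - e - π * |s| ≤ σ0 * σ * sin ((2 * n + 1) * (π * s)) := by
    obtain ⟨a1, a2⟩ := abs_le.1 he
    obtain ⟨a3, a4⟩ := abs_le.1 q5
    rcases hσ1 with rfl | rfl <;> rcases hσ0 with rfl | rfl <;> linarith
  rw [w4]
  have w6 := mul_le_mul_of_nonneg_right w5 (by positivity : 0 ≤ 1 / (N * q))
  have w7 := mul_le_mul_of_nonneg_left w1 hc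
  have w8 := mul_le_mul_of_nonneg_left w2 he0
  linarith

/-- the weight `1 / |a - y|` -/
noncomputable def ww (a y : ℕ) : ℝ := 1 / |(a : ℝ) - y|

theorem sum_ww {N a : ℕ} (ha : a < N) :
    ∑ y ∈ range N, ww a y = (harmonic a : ℝ) + harmonic (N - 1 - a) := by
  obtain ⟨b, rfl⟩ := Nat.exists_eq_add_of_lt ha
  rw [show a + b + 1 = a + 1 + b by ring, sum_range_add, sum_range_succ, ← sum_range_reflect,
    show a + 1 + b - 1 - a = b by omega]
  simp only [harmonic, ww, sub_self, abs_zero, div_zero, add_zero]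
  push_cast
  congr 1
  · refine sum_congr rfl fun j hj => ?_
    obtain ⟨c, rfl⟩ := Nat.exists_eq_add_of_lt (mem_range.1 hj)
    rw [show j + c + 1 - 1 - j = c by omega]
    push_cast
    rw [show (j : ℝ) + c + 1 - c = j + 1 by ring, abs_of_pos (by positivity), one_div]
  · refine sum_congr rfl fun j _ => ?_
    rw [show (a : ℝ) - (a + 1 + j) = -(j + 1) by ring, abs_neg, abs_of_pos (by positivity), one_div]

theorem sum_ww_bd {J a : ℕ} (hJ : 1 ≤ J) (ha : a < 2 ^ J) :
    (J : ℝ) / 2 ≤ ∑ y ∈ range (2 ^ J), ww a y ∧ ∑ y ∈ range (2 ^ J), ww a y ≤ 4 * J := by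
  have hJ' : (1 : ℝ) ≤ J := by exact_mod_cast hJ
  have hl : log ((2 ^ J : ℕ) : ℝ) = J * log 2 := by
    push_cast
    exact log_pow _ _
  have h1 := log_two_gt_d9
  have h2 := log_two_lt_d9
  have hu : ∀ b < 2 ^ J, (harmonic b : ℝ) ≤ 2 * J := fun b hb => by
    have := harmonic_le_one_add_log b
    have h3 : log b ≤ log ((2 ^ J : ℕ) : ℝ) := by
      rcases b.eq_zero_or_pos with rfl | h
      · simpa using log_natCast_nonneg (2 ^ J)
      · exact log_le_log (by exact_mod_cast h) (by exact_mod_cast hb.le)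
    nlinarith
  rw [sum_ww ha]
  refine ⟨?_, by linarith [hu a ha, hu (2 ^ J - 1 - a) (by omega)]⟩
  have h3 := log_add_one_le_harmonic a
  have h4 := log_add_one_le_harmonic (2 ^ J - 1 - a)
  have h5 : log ((2 ^ J : ℕ) : ℝ) ≤ log ((a + 1 : ℕ) * (2 ^ J - 1 - a + 1 : ℕ)) := by
    refine log_le_log (by positivity) ?_
    obtain ⟨b, hb⟩ := Nat.exists_eq_add_of_lt ha
    rw [hb, show a + b + 1 - 1 - a = b by omega]
    push_cast
    nlinarith [show (0 : ℝ) ≤ a * b by positivity]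
  rw [log_mul (by positivity) (by positivity)] at h5
  nlinarith

theorem kern {κ ε B x : ℝ} {N a v : ℕ} {τ R : ℕ → ℝ} (hκ0 : 0 < κ) (hκ : κ ≤ 1)
    (hε : ε ≤ κ / 4) (hτ : ∀ y, 0 ≤ τ y ∧ τ y ≤ ε) (ha : a < N)
    (hR : ∀ y < N, ‖ee (v * τ y) - (if y < a then -1 else 1)‖ ≤ R y)
    (hB : ∑ y ∈ range N, R y * ww a y ≤ B) (h1 : κ ≤ x) (h2 : x ≤ 1 - κ)
    (h3 : ∀ j : ℤ, κ ≤ |2 * N * x - j|) (h4 : (a : ℝ) ≤ N * x) (h5 : N * x ≤ a + 1) :
    ∃ n ≤ N * (v + 1), (κ / 7 - 2 / κ ^ 2 * (2 * π * ε)) * ∑ y ∈ range N, ww a y -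
      2 / κ ^ 2 * B - 6 / κ ^ 2 ≤ ‖∑ y ∈ range N, 1 / (N : ℂ) * DK n (x - (y + τ y) / N)‖ := by
  have hN : (0 : ℝ) < N := by exact_mod_cast (by omega : 0 < N)
  have k1 : (a : ℝ) + κ / 2 ≤ N * x := by
    have := h3 (2 * a)
    push_cast at this
    rw [abs_of_nonneg (by linarith)] at this
    linarith
  have k2 : N * x ≤ a + 1 - κ / 2 := by
    have := h3 (2 * (a + 1))
    push_cast at this
    rw [abs_of_nonpos (by linarith)] at this
    linarith
  have k3 : 2 * κ ≤ |sin (2 * π * (N * x))| := by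
    have e := sin_add_int_mul_pi (π * (2 * N * x - round (2 * N * x))) (round (2 * N * x))
    rw [show π * (2 * N * x - round (2 * N * x)) + round (2 * N * x) * π = 2 * π * (N * x) by ring]
      at e
    have h6 := mul_abs_le_abs_sin (x := π * (2 * N * x - round (2 * N * x))) (by
      rw [abs_mul, abs_of_pos pi_pos]
      nlinarith [abs_sub_round (2 * N * x), pi_pos])
    rw [abs_mul, abs_of_pos pi_pos, show ∀ x : ℝ, 2 / π * (π * x) = 2 * x from
      fun x => by field_simp] at h6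
    rw [e, abs_mul, abs_zpow, abs_neg, abs_one, one_zpow, one_mul]
    linarith [h3 (round (2 * N * x))]
  obtain ⟨s, hs, hc⟩ : ∃ s ≤ 1, κ ≤ |sin (2 * π * ((N * (v + s) : ℕ) * x))| := by
    by_contra hc
    push Not at hc
    have a0 := hc 0 zero_le_one
    have a1 := hc 1 le_rfl
    rw [show 2 * π * (N * x) = 2 * π * ((N * (v + 1) : ℕ) * x) - 2 * π * ((N * (v + 0) : ℕ) * x) by
      push_cast; ring, sin_sub] at k3
    have a2 := k3.trans (abs_sub _ _)
    rw [abs_mul, abs_mul] at a2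
    have a3 := mul_le_of_le_one_right (abs_nonneg (sin (2 * π * ((N * (v + 1) : ℕ) * x))))
      (abs_cos_le_one (2 * π * ((N * (v + 0) : ℕ) * x)))
    have a4 := mul_le_of_le_one_left (abs_nonneg (sin (2 * π * ((N * (v + 0) : ℕ) * x))))
      (abs_cos_le_one (2 * π * ((N * (v + 1) : ℕ) * x)))
    linarith
  refine ⟨N * (v + s), Nat.mul_le_mul_left _ (by omega), ?_⟩
  set n := N * (v + s) with hn
  obtain ⟨σ0, hσ0, hc'⟩ : ∃ σ0 : ℝ, (σ0 = 1 ∨ σ0 = -1) ∧ κ ≤ σ0 * sin (2 * π * (n * x)) := by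
    rcases le_abs.1 hc with h | h
    · exact ⟨1, Or.inl rfl, by linarith⟩
    · exact ⟨-1, Or.inr rfl, by linarith⟩
  have key : ∀ y ∈ range N, κ / 7 * ww a y - 2 / κ ^ 2 * ((R y + 2 * π * ε) * ww a y) -
      2 / κ * (1 / N) - (if y = a then 4 / κ ^ 2 else 0) ≤
      -σ0 * (1 / N * (DK n (x - (y + τ y) / N)).re) := fun y hy => by
    have hyN : (y : ℝ) + 1 ≤ N := by exact_mod_cast mem_range.1 hy
    obtain ⟨t0, t1⟩ := hτ y
    have t2 : 0 ≤ (y + τ y) / N := by positivity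
    have t3 : (y + τ y) / N ≤ 1 := (div_le_one hN).2 (by linarith)
    have t4 : |x - (y + τ y) / N| ≤ 1 - κ := abs_le.2 ⟨by linarith, by linarith⟩
    have t5 : N * (x - (y + τ y) / N) = N * x - y - τ y := by field_simp; ring
    have t6 : ∀ σ : ℝ, ‖ee (v * τ y) - σ‖ ≤ R y →
        |sin (2 * π * (n * (x - (y + τ y) / N))) - σ * sin (2 * π * (n * x))| ≤
          R y + 2 * π * ε := fun σ hσ => by
      rw [mul_sub (n : ℝ)]
      refine (sin_close _ _ _).trans ?_
      have e : (n : ℝ) * ((y + τ y) / N) = ((v + s) * y : ℕ) + (v * τ y + s * τ y) := by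
        rw [hn]
        push_cast
        field_simp
      rw [e, ee_add, ee_nat, one_mul, ee_add, show ee (v * τ y) * ee (s * τ y) - σ =
        ee (v * τ y) - σ + ee (v * τ y) * (ee (s * τ y) - 1) by ring]
      refine (norm_add_le _ _).trans (add_le_add hσ ?_)
      rw [norm_mul, norm_ee, one_mul]
      refine (ee_sub_one _).trans (mul_le_mul_of_nonneg_left ?_ (by positivity))
      have : (s : ℝ) ≤ 1 := by exact_mod_cast hs
      rw [abs_of_nonneg (by positivity)]
      nlinarith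
    have t7 := hR y (mem_range.1 hy)
    have t8 : ∀ w : ℝ, 0 ≤ w → κ / 7 * w ≤ σ0 * sin (2 * π * (n * x)) / 7 * w := fun w hw =>
      mul_le_mul_of_nonneg_right (by linarith) hw
    rcases lt_trichotomy y a with h | rfl | h
    · have h' : (y : ℝ) + 1 ≤ a := by exact_mod_cast h
      have p : 0 < x - (y + τ y) / N := (mul_pos_iff_of_pos_left hN).1 (by rw [t5]; linarith)
      rw [if_pos h] at t7
      have := term_bd (d := a - y) (σ := -1) n hκ0 hκ hN (by linarith) t4
        (by rw [abs_of_pos p, t5]; nlinarith) (by rw [abs_of_pos p, t5]; linarith)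
        (by rw [abs_of_pos p]; ring) (Or.inr rfl) hσ0 (by linarith) (t6 _ (by simpa using t7))
      rw [if_neg h.ne, ww, abs_of_pos (by linarith : (0 : ℝ) < a - y)]
      linarith [t8 (1 / (a - y)) (one_div_nonneg.2 (by linarith))]
    · have p : 0 < x - (y + τ y) / N := (mul_pos_iff_of_pos_left hN).1 (by rw [t5]; linarith)
      have := term_bd (d := 1) (σ := -1) (c := 0) (e := 1) n hκ0 hκ hN one_pos t4
        (by rw [abs_of_pos p, t5]; linarith) (by rw [abs_of_pos p, t5]; linarith)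
        (by rw [abs_of_pos p]; ring) (Or.inr rfl) hσ0 (by simp) (by simpa using abs_sin_le_one _)
      have h7 : 0 < 2 / κ ^ 2 := by positivity
      rw [if_pos rfl, ww, sub_self, abs_zero, div_zero, show 4 / κ ^ 2 = 2 * (2 / κ ^ 2) by ring]
      linarith
    · have h' : (a : ℝ) + 1 ≤ y := by exact_mod_cast h
      have p : x - (y + τ y) / N < 0 := neg_of_mul_neg_left (by rw [mul_comm, t5]; linarith) hN.le
      rw [if_neg h.not_gt] at t7
      have := term_bd (d := y - a) (σ := 1) n hκ0 hκ hN (by linarith) t4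
        (by rw [abs_of_neg p, mul_neg, t5]; nlinarith) (by rw [abs_of_neg p, mul_neg, t5]; linarith)
        (by rw [abs_of_neg p]; ring) (Or.inl rfl) hσ0 (by linarith) (t6 _ (by simpa using t7))
      rw [if_neg h.ne', ww, abs_sub_comm, abs_of_pos (by linarith : (0 : ℝ) < y - a)]
      linarith [t8 (1 / (y - a)) (one_div_nonneg.2 (by linarith))]
  have k4 := sum_le_sum key
  simp only [sum_sub_distrib, add_mul, sum_add_distrib, ← mul_sum, sum_ite_eq', mem_range, ha,
    if_true, sum_const, card_range, nsmul_eq_mul] at k4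
  have k5 : -σ0 * (1 / N * ∑ y ∈ range N, (DK n (x - (y + τ y) / N)).re) ≤
      ‖∑ y ∈ range N, 1 / (N : ℂ) * DK n (x - (y + τ y) / N)‖ := by
    refine (le_abs_self _).trans (le_trans (le_of_eq ?_) (Complex.abs_re_le_norm _))
    rw [abs_mul, ← mul_sum, ← Complex.ofReal_natCast, ← Complex.ofReal_one, ← Complex.ofReal_div,
      Complex.re_ofReal_mul, Complex.re_sum]
    rcases hσ0 with rfl | rfl <;> simp
  have k6 : (N : ℝ) * (2 / κ * (1 / N)) ≤ 2 / κ ^ 2 := by
    rw [mul_left_comm, mul_one_div_cancel hN.ne', mul_one]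
    exact div_le_div_of_nonneg_left (by norm_num) (by positivity) (by nlinarith)
  have k7 := mul_le_mul_of_nonneg_left hB (by positivity : 0 ≤ 2 / κ ^ 2)
  have k8 : 6 / κ ^ 2 = 2 / κ ^ 2 + 4 / κ ^ 2 := by ring
  linarith

end Vale.Agent.P091
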